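import Crest.Agent.Helper17.SW.TwoPairSpec

/-!
# S0453 (helper38): the product case of the abstract two-pair lemma (`ProdStmt`)

On a two-pair fibre whose block sum is `≠ 2` the blocks are determined by `(rho, kap)` and fill a
rectangle, so the fibre is a product set `P × P'`, the classes of the two keys are its rows and
columns, and `∑ (f - f̄_col)(f - f̄_row) = ∑ (f - f̄_col - f̄_row + f̄)² ≥ 0`.

Mathlib + `Crest.Agent.Helper17.SW.{Avg, TwoPairSpec}` only.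
-/

set_option autoImplicit false

namespace Crest.Agent.Helper38.SW

open Finset Crest.Agent.Helper17.SW

/-- Product positivity with the row/column/total means given abstractly. -/
lemma prod_pos_aux {α β : Type*} (P : Finset α) (Q : Finset β) (F : α → β → ℝ) (a : β → ℝ)
    (b : α → ℝ) (c : ℝ) (f1 : ∀ p, ∑ q ∈ Q, F p q = Q.card * b p)
    (f2 : ∀ q, ∑ p ∈ P, F p q = P.card * a q) (f3 : ∑ q ∈ Q, a q = Q.card * c)
    (f4 : ∑ p ∈ P, b p = P.card * c) :
    0 ≤ ∑ p ∈ P, ∑ q ∈ Q, (F p q - a q) * (F p q - b p) := by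
  have d1 : ∀ p, ∑ q ∈ Q, (F p q - a q - b p + c) = 0 := by
    intro p
    simp only [Finset.sum_add_distrib, Finset.sum_sub_distrib, Finset.sum_const, nsmul_eq_mul]
    rw [f1, f3]; ring
  have d2 : ∀ q, ∑ p ∈ P, (F p q - a q - b p + c) = 0 := by
    intro q
    simp only [Finset.sum_add_distrib, Finset.sum_sub_distrib, Finset.sum_const, nsmul_eq_mul]
    rw [f2, f4]; ring
  have e : ∀ p q, (F p q - a q) * (F p q - b p) =
      (F p q - a q - b p + c) ^ 2 + (b p - c) * (F p q - a q - b p + c) +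
        (a q - c) * (F p q - a q - b p + c) + (b p - c) * (a q - c) := by
    intro p q; ring
  have s1 : ∑ p ∈ P, ∑ q ∈ Q, (b p - c) * (F p q - a q - b p + c) = 0 := by
    apply Finset.sum_eq_zero; intro p _; rw [← Finset.mul_sum, d1, mul_zero]
  have s2 : ∑ p ∈ P, ∑ q ∈ Q, (a q - c) * (F p q - a q - b p + c) = 0 := by
    rw [Finset.sum_comm]
    apply Finset.sum_eq_zero; intro q _; rw [← Finset.mul_sum, d2, mul_zero]
  have s3 : ∑ p ∈ P, ∑ q ∈ Q, (b p - c) * (a q - c) = 0 := by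
    have h0 : ∑ q ∈ Q, (a q - c) = 0 := by
      rw [Finset.sum_sub_distrib, f3, Finset.sum_const, nsmul_eq_mul]; ring
    apply Finset.sum_eq_zero; intro p _; rw [← Finset.mul_sum, h0, mul_zero]
  have key : ∑ p ∈ P, ∑ q ∈ Q, (F p q - a q) * (F p q - b p) =
      ∑ p ∈ P, ∑ q ∈ Q, (F p q - a q - b p + c) ^ 2 := by
    simp only [e, Finset.sum_add_distrib]
    rw [s1, s2, s3]; ring
  rw [key]
  exact Finset.sum_nonneg fun p _ => Finset.sum_nonneg fun q _ => sq_nonneg _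

/-- **Product positivity**: on a product set the two partial averaging operators commute. -/
lemma prod_pos {α β : Type*} (P : Finset α) (Q : Finset β) (F : α → β → ℝ) :
    0 ≤ ∑ p ∈ P, ∑ q ∈ Q, (F p q - (∑ p' ∈ P, F p' q) / (P.card : ℝ)) *
        (F p q - (∑ q' ∈ Q, F p q') / (Q.card : ℝ)) := by
  rcases P.eq_empty_or_nonempty with rfl | hP
  · simp
  rcases Q.eq_empty_or_nonempty with rfl | hQ
  · simp
  have hp : (P.card : ℝ) ≠ 0 := by exact_mod_cast hP.card_pos.ne'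
  have hq : (Q.card : ℝ) ≠ 0 := by exact_mod_cast hQ.card_pos.ne'
  refine prod_pos_aux P Q F (fun q => (∑ p' ∈ P, F p' q) / (P.card : ℝ))
    (fun p => (∑ q' ∈ Q, F p q') / (Q.card : ℝ))
    ((∑ p ∈ P, ∑ q ∈ Q, F p q) / ((P.card : ℝ) * Q.card)) ?_ ?_ ?_ ?_
  · intro p; field_simp
  · intro q; field_simp
  · rw [← Finset.sum_div, Finset.sum_comm]; field_simp
  · rw [← Finset.sum_div]; field_simp

/-- **Rectangle positivity**: if `x ↦ (k1 x, k2 x)` maps `Φ` bijectively onto a product set then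
`⟨(I - Q₂) f, (I - Q₁) f⟩ ≥ 0` for the class averages of the two keys. -/
lemma rect_pos {X K1 K2 : Type*} [DecidableEq K1] [DecidableEq K2] (Φ : Finset X) (k1 : X → K1)
    (k2 : X → K2) (hinj : ∀ x ∈ Φ, ∀ y ∈ Φ, k1 x = k1 y → k2 x = k2 y → x = y)
    (hsurj : ∀ x ∈ Φ, ∀ y ∈ Φ, ∃ z ∈ Φ, k1 z = k1 x ∧ k2 z = k2 y) (f : X → ℝ) :
    0 ≤ ∑ x ∈ Φ, (f x - avg Φ k2 f x) * (f x - avg Φ k1 f x) := by
  classical
  set P1 : Finset K1 := Φ.image k1 with hP1
  set P2 : Finset K2 := Φ.image k2 with hP2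
  set F : K1 → K2 → ℝ := fun t1 t2 => ∑ y ∈ Φ.filter (fun y => k1 y = t1 ∧ k2 y = t2), f y
    with hF
  -- (i) `F` recovers `f`
  have hFx : ∀ x ∈ Φ, F (k1 x) (k2 x) = f x := by
    intro x hx
    have : Φ.filter (fun y => k1 y = k1 x ∧ k2 y = k2 x) = {x} := by
      ext y
      simp only [Finset.mem_filter, Finset.mem_singleton]
      constructor
      · rintro ⟨hy, h1, h2⟩; exact hinj y hy x hx h1 h2
      · rintro rfl; exact ⟨hx, rfl, rfl⟩
    rw [hF]; simp only; rw [this, Finset.sum_singleton]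
  -- (ii) class sums
  have hsum2 : ∀ x ∈ Φ, ∑ y ∈ cls Φ k2 x, f y = ∑ t1 ∈ P1, F t1 (k2 x) := by
    intro x _
    rw [← Finset.sum_fiberwise_of_maps_to (g := k1) (s := cls Φ k2 x) (t := P1)
      (fun y hy => Finset.mem_image_of_mem _ (cls_subset _ _ _ hy))]
    refine Finset.sum_congr rfl fun t1 _ => ?_
    rw [hF]; simp only
    refine Finset.sum_congr ?_ fun _ _ => rfl
    ext y
    simp only [cls, Finset.mem_filter]
    tauto
  have hsum1 : ∀ x ∈ Φ, ∑ y ∈ cls Φ k1 x, f y = ∑ t2 ∈ P2, F (k1 x) t2 := by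
    intro x _
    rw [← Finset.sum_fiberwise_of_maps_to (g := k2) (s := cls Φ k1 x) (t := P2)
      (fun y hy => Finset.mem_image_of_mem _ (cls_subset _ _ _ hy))]
    refine Finset.sum_congr rfl fun t2 _ => ?_
    rw [hF]; simp only
    refine Finset.sum_congr ?_ fun _ _ => rfl
    ext y
    simp only [cls, Finset.mem_filter]
    tauto
  -- (iii) class cardinalities
  have hcard2 : ∀ x ∈ Φ, (cls Φ k2 x).card = P1.card := by
    intro x hx
    have him : (cls Φ k2 x).image k1 = P1 := by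
      ext t
      simp only [hP1, Finset.mem_image]
      constructor
      · rintro ⟨y, hy, rfl⟩; exact ⟨y, cls_subset _ _ _ hy, rfl⟩
      · rintro ⟨y, hy, rfl⟩
        obtain ⟨z, hz, h1, h2⟩ := hsurj y hy x hx
        exact ⟨z, mem_cls.2 ⟨hz, h2⟩, h1⟩
    rw [← him, Finset.card_image_of_injOn]
    intro y hy y' hy' h
    have hy := mem_cls.1 (Finset.mem_coe.1 hy)
    have hy' := mem_cls.1 (Finset.mem_coe.1 hy')
    exact hinj y hy.1 y' hy'.1 h (hy.2.trans hy'.2.symm)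
  have hcard1 : ∀ x ∈ Φ, (cls Φ k1 x).card = P2.card := by
    intro x hx
    have him : (cls Φ k1 x).image k2 = P2 := by
      ext t
      simp only [hP2, Finset.mem_image]
      constructor
      · rintro ⟨y, hy, rfl⟩; exact ⟨y, cls_subset _ _ _ hy, rfl⟩
      · rintro ⟨y, hy, rfl⟩
        obtain ⟨z, hz, h1, h2⟩ := hsurj x hx y hy
        exact ⟨z, mem_cls.2 ⟨hz, h1⟩, h2⟩
    rw [← him, Finset.card_image_of_injOn]
    intro y hy y' hy' h
    have hy := mem_cls.1 (Finset.mem_coe.1 hy)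
    have hy' := mem_cls.1 (Finset.mem_coe.1 hy')
    exact hinj y hy.1 y' hy'.1 (hy.2.trans hy'.2.symm) h
  -- (iv) rewrite the sum over `Φ` as a sum over `P1 ×ˢ P2`
  set g : K1 × K2 → ℝ := fun t =>
    (F t.1 t.2 - (∑ t1 ∈ P1, F t1 t.2) / (P1.card : ℝ)) *
      (F t.1 t.2 - (∑ t2 ∈ P2, F t.1 t2) / (P2.card : ℝ)) with hg
  have hstep : ∑ x ∈ Φ, (f x - avg Φ k2 f x) * (f x - avg Φ k1 f x) =
      ∑ x ∈ Φ, g (k1 x, k2 x) := by
    refine Finset.sum_congr rfl fun x hx => ?_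
    rw [hg]; simp only
    rw [avg, avg, hsum2 x hx, hsum1 x hx, hcard2 x hx, hcard1 x hx, hFx x hx]
  have himg : Φ.image (fun x => (k1 x, k2 x)) = P1 ×ˢ P2 := by
    ext t
    simp only [Finset.mem_image, Finset.mem_product, hP1, hP2]
    constructor
    · rintro ⟨x, hx, rfl⟩; exact ⟨⟨x, hx, rfl⟩, ⟨x, hx, rfl⟩⟩
    · rintro ⟨⟨x, hx, h1⟩, ⟨y, hy, h2⟩⟩
      obtain ⟨z, hz, e1, e2⟩ := hsurj x hx y hy
      exact ⟨z, hz, Prod.ext (e1.trans h1) (e2.trans h2)⟩
  have hinj' : Set.InjOn (fun x => (k1 x, k2 x)) (Φ : Set X) := by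
    intro x hx y hy h
    have h' := Prod.ext_iff.1 h
    exact hinj x (Finset.mem_coe.1 hx) y (Finset.mem_coe.1 hy) h'.1 h'.2
  rw [hstep, ← Finset.sum_image (f := g) hinj', himg, Finset.sum_product]
  exact prod_pos P1 P2 F

/-! ### the blocks with sum `≠ 2` -/

lemma blk_inj : ∀ μ ν : Blk4, μ.tot = ν.tot → μ.tot ≠ 2 → μ.rho = ν.rho → μ.kap = ν.kap →
    μ = ν := by
  decide

lemma blk_rect : ∀ μ ν : Blk4, μ.tot = ν.tot → μ.tot ≠ 2 →
    ∃ κ : Blk4, κ.tot = μ.tot ∧ κ.rho = μ.rho ∧ κ.kap = ν.kap := by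
  decide

/-- **(E2a) in transport form.** -/
theorem prodStmt : ProdStmt := by
  intro X L L' 𝒜 𝒞 _ _ Φ ℓ ℓ' M A C m As Cs hm hco f
  classical
  set k1 : X → ℕ × 𝒜 := fun x => ((M x).rho, A x) with hk1
  set k2 : X → ℕ × 𝒞 := fun x => ((M x).kap, C x) with hk2
  have htot : ∀ x ∈ Φ, (M x).tot = m ∧ A x ∈ As (M x).rho ∧ C x ∈ Cs (M x).kap := fun x hx =>
    (hco.img (M x) (A x) (C x)).1 ⟨x, hx, rfl, rfl, rfl⟩
  have hc2 : ∀ x ∈ Φ, cls Φ ℓ x = cls Φ k2 x := by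
    intro x hx
    refine cls_congr hx fun y hy => ?_
    rw [hco.key y hy x hx, hk2]
    simp only [Prod.mk.injEq]
  have hc1 : ∀ x ∈ Φ, cls Φ ℓ' x = cls Φ k1 x := by
    intro x hx
    refine cls_congr hx fun y hy => ?_
    rw [hco.key' y hy x hx, hk1]
    simp only [Prod.mk.injEq]
  have hsum : ∑ x ∈ Φ, (f x - avg Φ ℓ f x) * (f x - avg Φ ℓ' f x) =
      ∑ x ∈ Φ, (f x - avg Φ k2 f x) * (f x - avg Φ k1 f x) := by
    refine Finset.sum_congr rfl fun x hx => ?_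
    rw [avg, avg, avg, avg, hc2 x hx, hc1 x hx]
  rw [hsum]
  refine rect_pos Φ k1 k2 ?_ ?_ f
  · intro x hx y hy h1 h2
    rw [hk1] at h1; rw [hk2] at h2
    simp only [Prod.mk.injEq] at h1 h2
    have hM : M x = M y :=
      blk_inj (M x) (M y) ((htot x hx).1.trans (htot y hy).1.symm)
        (by rw [(htot x hx).1]; exact hm) h1.1 h2.1
    exact hco.inj x hx y hy hM h1.2 h2.2
  · intro x hx y hy
    obtain ⟨κ, hκ1, hκ2, hκ3⟩ :=
      blk_rect (M x) (M y) ((htot x hx).1.trans (htot y hy).1.symm)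
        (by rw [(htot x hx).1]; exact hm)
    obtain ⟨z, hz, hzM, hzA, hzC⟩ := (hco.img κ (A x) (C y)).2
      ⟨hκ1.trans (htot x hx).1, by rw [hκ2]; exact (htot x hx).2.1,
        by rw [hκ3]; exact (htot y hy).2.2⟩
    refine ⟨z, hz, ?_, ?_⟩
    · rw [hk1]; simp only [Prod.mk.injEq]; exact ⟨by rw [hzM, hκ2], hzA⟩
    · rw [hk2]; simp only [Prod.mk.injEq]; exact ⟨by rw [hzM, hκ3], hzC⟩

end Crest.Agent.Helper38.SW
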